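import Mathlib

/-!
# P199: definitions for the hand-in on fields with few division algebras
-/

namespace Vale.Agent.P199.FieldDefs

/-- The `k`-algebra `D` is *locally finite over `k`*: every finite subset of `D` generates a
`k`-subalgebra of finite dimension. -/
def LocallyFinite (k D : Type) [Field k] [Ring D] [Algebra k D] : Prop :=
  ∀ T : Finset D, FiniteDimensional k (Algebra.adjoin k (T : Set D))

/-- Every division `K`-algebra of finite dimension over `K` is commutative. -/
def NoFiniteDivisionAlgebra (K : Type) [Field K] : Prop :=
  ∀ (E : Type) [DivisionRing E] [Algebra K E], FiniteDimensional K E → ∀ x y : E, x * y = y * x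

/-- For every algebraic extension `F` of `K`, every finite separable extension `L ≠ F` of `F`
has an element `m` such that `F[m] = F(m)` contains a conjugate `m' ≠ m` of `m` over `F`
(equivalently, some intermediate field has a nontrivial automorphism over `F`; this holds for
instance if every such `L` contains a Galois extension `M ≠ F` of `F`). -/
def HasAutomorphisms (K : Type) [Field K] : Prop :=
  ∀ (F L : Type) [Field F] [Algebra K F] [Field L] [Algebra F L], Algebra.IsAlgebraic K F →
    FiniteDimensional F L → Algebra.IsSeparable F L → ¬ Function.Surjective (algebraMap F L) →
    ∃ m m' : L, m' ≠ m ∧ m' ∈ Algebra.adjoin F {m} ∧ minpoly F m' = minpoly F m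

end Vale.Agent.P199.FieldDefs
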