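import Vale.Agent.P199.Skolem

/-!
# P199: fields over which algebraic division rings are commutative
-/

namespace Vale.Agent.P199.Galois

open Finset Polynomial Vale.Agent.P199.Sep Vale.Agent.P199.Skolem
open Vale.Agent.Results.P199.Centralizer

/-- an algebraic element `d` with `d a = b d`, `b ∈ F[a]`, and `a` generate a finite-dimensional
algebra -/
theorem fd_pair {F D : Type} [Field F] [DivisionRing D] [Algebra F D] (a d b : D)
    (ha : IsIntegral F a) (hd : IsIntegral F d) (hb : b ∈ Algebra.adjoin F ({a} : Set D))
    (h : d * a = b * d) : FiniteDimensional F (Algebra.adjoin F ({a, d} : Set D)) := by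
  let P := Subalgebra.toSubmodule (Algebra.adjoin F ({a} : Set D))
  let Q := Subalgebra.toSubmodule (Algebra.adjoin F ({d} : Set D))
  have hP : P.FG := ha.fg_adjoin_singleton
  have hQ : Q.FG := hd.fg_adjoin_singleton
  have hW : (P * Q).FG := hP.mul hQ
  have hdP : ∀ x ∈ Algebra.adjoin F ({a} : Set D),
      ∃ x' ∈ Algebra.adjoin F ({a} : Set D), d * x = x' * d := by
    intro x hx
    induction hx using Algebra.adjoin_induction with
    | mem s hs =>
      rw [Set.mem_singleton_iff] at hs
      subst hs
      exact ⟨b, hb, h⟩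
    | algebraMap c =>
      exact ⟨algebraMap F D c, Subalgebra.algebraMap_mem _ c, (Algebra.commutes c d).symm⟩
    | add x y _ _ hx hy =>
      obtain ⟨x', hx1, hx2⟩ := hx
      obtain ⟨y', hy1, hy2⟩ := hy
      exact ⟨x' + y', add_mem hx1 hy1, by rw [mul_add, add_mul, hx2, hy2]⟩
    | mul x y _ _ hx hy =>
      obtain ⟨x', hx1, hx2⟩ := hx
      obtain ⟨y', hy1, hy2⟩ := hy
      exact ⟨x' * y', mul_mem hx1 hy1, by rw [← mul_assoc, hx2, mul_assoc, hy2, mul_assoc]⟩
  have hleft : ∀ r ∈ Algebra.adjoin F ({a, d} : Set D), ∀ w ∈ P * Q, r * w ∈ P * Q := by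
    intro r hr
    induction hr using Algebra.adjoin_induction with
    | mem s hs =>
      rcases hs with rfl | hs
      · intro w hw
        induction hw using Submodule.mul_induction_on' with
        | mem_mul_mem x hx y hy =>
          rw [← mul_assoc]
          exact Submodule.mul_mem_mul
            (Subalgebra.mul_mem (Algebra.adjoin F {_}) (Algebra.subset_adjoin rfl) hx) hy
        | add x _ y _ hx hy =>
          rw [mul_add]
          exact add_mem hx hy
      · rw [Set.mem_singleton_iff] at hs
        subst hs
        intro w hw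
        induction hw using Submodule.mul_induction_on' with
        | mem_mul_mem x hx y hy =>
          obtain ⟨x', hx1, hx2⟩ := hdP x hx
          rw [← mul_assoc, hx2, mul_assoc]
          exact Submodule.mul_mem_mul hx1
            (Subalgebra.mul_mem (Algebra.adjoin F {_}) (Algebra.subset_adjoin rfl) hy)
        | add x _ y _ hx hy =>
          rw [mul_add]
          exact add_mem hx hy
    | algebraMap c =>
      intro w hw
      rw [← Algebra.smul_def]
      exact Submodule.smul_mem _ _ hw
    | add x y _ _ hx hy =>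
      intro w hw
      rw [add_mul]
      exact add_mem (hx w hw) (hy w hw)
    | mul x y _ _ hx hy =>
      intro w hw
      rw [mul_assoc]
      exact hx _ (hy w hw)
  have h1 : (1 : D) ∈ P * Q := by
    have h2 := Submodule.mul_mem_mul (M := P) (N := Q) (m := 1) (n := 1)
      (one_mem (Algebra.adjoin F ({a} : Set D))) (one_mem (Algebra.adjoin F ({d} : Set D)))
    rwa [mul_one] at h2
  have hle : Subalgebra.toSubmodule (Algebra.adjoin F ({a, d} : Set D)) ≤ P * Q := by
    intro r hr
    have := hleft r hr 1 h1
    rwa [mul_one] at this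
  have hfd : FiniteDimensional F (P * Q : Submodule F D) := Module.Finite.iff_fg.mpr hW
  exact Submodule.finiteDimensional_of_le hle

/-- images of finite-dimensional algebras -/
theorem fd_map {K A B : Type} [Field K] [Ring A] [Ring B] [Algebra K A] [Algebra K B]
    (f : A →ₐ[K] B) (S : Set A) (h : FiniteDimensional K (Algebra.adjoin K S)) :
    FiniteDimensional K (Algebra.adjoin K (f '' S)) := by
  rw [← AlgHom.map_adjoin]
  have h1 : (Subalgebra.toSubmodule (Algebra.adjoin K S)).FG := Module.Finite.iff_fg.mp h
  have h2 := h1.map f.toLinearMap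
  exact Module.Finite.iff_fg.mpr h2

/-- a finite-dimensional algebra over an algebraic extension `F` of `K` is locally finite
over `K` -/
theorem locFin_of_fd {K F B : Type} [Field K] [Field F] [Ring B] [Algebra K F] [Algebra F B]
    [Algebra K B] [IsScalarTower K F B] (hKF : ∀ z : F, IsAlgebraic K z)
    (hB : FiniteDimensional F B) : LocFinOn K (Set.univ : Set B) := by
  classical
  have hF : LocFinOn K (Set.univ : Set F) :=
    (Vale.Agent.Results.P199.Centralizer.result K F).2.2.1 hKF ⊥ inferInstance
      (fun c d _ _ => mul_comm c d)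
  let e := Module.finBasis F B
  refine locFin_of_span (k := K) (Set.range (algebraMap F B)) (fun i => e i) ?_ ?_
  · intro z
    refine ⟨fun i => algebraMap F B (e.repr z i), fun i => ⟨_, rfl⟩, ?_⟩
    rw [← e.sum_repr z]
    refine sum_congr rfl (fun i _ => ?_)
    rw [e.sum_repr z, Algebra.smul_def]
  · intro T hT
    obtain ⟨T', _, hT'⟩ := (Finset.subset_set_image_iff (f := algebraMap F B) (s := Set.univ)
      (t := T)).mp (by
        intro t ht
        obtain ⟨z, hz⟩ := hT t ht
        exact ⟨z, Set.mem_univ z, hz⟩)
    have h1 := hF T' (fun _ _ => Set.mem_univ _)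
    have h2 := fd_map (IsScalarTower.toAlgHom K F B) (T' : Set F) h1
    have h3 : (T : Set B) = (IsScalarTower.toAlgHom K F B) '' (T' : Set F) := by
      rw [← hT', coe_image]
      rfl
    rw [h3]
    exact h2

/-- the core argument, over the center `F` -/
theorem core {K F D : Type} [Field K] [Field F] [DivisionRing D] [Algebra K F] [Algebra F D]
    [Algebra K D] [IsScalarTower K F D] (hKF : ∀ z : F, IsAlgebraic K z)
    (halg : ∀ b : D, IsAlgebraic K b)
    (hcen : ∀ z : D, (∀ x, z * x = x * z) → ∃ r : F, algebraMap F D r = z)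
    (hB : ∀ E : Subalgebra K D, FiniteDimensional K E → ∀ x ∈ E, ∀ y ∈ E, x * y = y * x)
    (hN : ∀ (L : Type) [Field L] [Algebra F L], FiniteDimensional F L → Algebra.IsSeparable F L →
      ¬ Function.Surjective (algebraMap F L) →
      ∃ m m' : L, m' ≠ m ∧ m' ∈ Algebra.adjoin F {m} ∧ minpoly F m' = minpoly F m)
    (x : D) (hx : IsSeparable F x) (hxF : ∀ r : F, algebraMap F D r ≠ x) : False := by
  have halgF : ∀ b : D, IsAlgebraic F b := fun b => (halg b).tower_top F
  let L := Algebra.adjoin F ({x} : Set D)
  have hxx : ∀ a ∈ ({x} : Set D), ∀ b ∈ ({x} : Set D), a * b = b * a := by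
    rintro a rfl b rfl
    rfl
  let _ : Field L := fieldOf halgF L (adjoin_comm _ hxx)
  have hfd : FiniteDimensional F L :=
    Module.Finite.iff_fg.mpr (halgF x).isIntegral.fg_adjoin_singleton
  have hsep : Algebra.IsSeparable F L := by
    constructor
    intro y
    refine (isSeparable_map L.val Subtype.val_injective y).mp ?_
    exact separable_adjoin halgF _ hxx (by rintro a rfl; exact hx) _ y.2
  have hns : ¬ Function.Surjective (algebraMap F L) := by
    intro hsurj
    obtain ⟨r, hr⟩ := hsurj ⟨x, Algebra.subset_adjoin rfl⟩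
    exact hxF r (congrArg (fun z : L => (z : D)) hr)
  obtain ⟨m, m', hne, hmem, hmin⟩ := hN L hfd hsep hns
  let g : L →ₐ[F] D := L.val
  have hg : Function.Injective g := Subtype.val_injective
  have hab : minpoly F (g m') = minpoly F (g m) := by
    rw [minpoly.algHom_eq g hg, minpoly.algHom_eq g hg]
    exact hmin
  have hbmem : g m' ∈ Algebra.adjoin F ({g m} : Set D) := by
    have h2 : (Algebra.adjoin F ({m} : Set L)).map g = Algebra.adjoin F ({g m} : Set D) := by
      rw [AlgHom.map_adjoin, Set.image_singleton]
    rw [← h2]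
    exact ⟨_, hmem, rfl⟩
  obtain ⟨d, hd0, hd⟩ := conj_of_minpoly hcen (g m) (g m') (halgF _).isIntegral hab
  have hfdB : FiniteDimensional F (Algebra.adjoin F ({g m, d} : Set D)) :=
    fd_pair (g m) d (g m') (halgF _).isIntegral (halgF _).isIntegral hbmem hd
  have hloc := locFin_of_fd (K := K) (F := F) (B := Algebra.adjoin F ({g m, d} : Set D)) hKF hfdB
  classical
  let a' : Algebra.adjoin F ({g m, d} : Set D) := ⟨g m, Algebra.subset_adjoin (by simp)⟩
  let d' : Algebra.adjoin F ({g m, d} : Set D) := ⟨d, Algebra.subset_adjoin (by simp)⟩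
  have h1 := hloc {a', d'} (fun _ _ => Set.mem_univ _)
  let ι : Algebra.adjoin F ({g m, d} : Set D) →ₐ[K] D :=
    (Algebra.adjoin F ({g m, d} : Set D)).val.restrictScalars K
  have h2 := fd_map ι _ h1
  have h3 : ι '' (({a', d'} : Finset _) : Set (Algebra.adjoin F ({g m, d} : Set D)))
      = {g m, d} := by
    rw [coe_insert, coe_singleton, Set.image_pair]
    rfl
  rw [h3] at h2
  have h5 : g m * d = d * g m := hB (Algebra.adjoin K ({g m, d} : Set D)) h2
    (g m) (Algebra.subset_adjoin (by simp)) d (Algebra.subset_adjoin (by simp))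
  rw [hd] at h5
  have h6 : g m = g m' := mul_right_cancel₀ hd0 h5
  exact hne (hg h6).symm

end Vale.Agent.P199.Galois
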