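import Vale.Agent.P199.Galois
import Vale.Agent.P199.FieldDefs

/-!
# P199: Kurosh's problem over fields with few finite-dimensional division algebras, proofs
-/

namespace Vale.Agent.P199.Good

open Vale.Agent.P199.Sep Vale.Agent.P199.FieldDefs

/-- algebraic division rings with commutative finite-dimensional subalgebras -/
theorem comm_of_good {K D : Type} [Field K] [DivisionRing D] [Algebra K D]
    (halg : ∀ b : D, IsAlgebraic K b)
    (hB : ∀ E : Subalgebra K D, FiniteDimensional K E → ∀ x ∈ E, ∀ y ∈ E, x * y = y * x)
    (hN : HasAutomorphisms K) : ∀ x y : D, x * y = y * x := by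
  by_contra hnc
  let ι : K →+* Subring.center D := (algebraMap K D).codRestrict (Subring.center D)
    (fun r => Subring.mem_center_iff.mpr (fun g => (Algebra.commutes r g).symm))
  let _ : Algebra K (Subring.center D) := ι.toAlgebra
  have htower : IsScalarTower K (Subring.center D) D :=
    IsScalarTower.of_algebraMap_eq (fun _ => rfl)
  have hKF : ∀ z : Subring.center D, IsAlgebraic K z := fun z =>
    (isAlgebraic_algHom_iff (IsScalarTower.toAlgHom K (Subring.center D) D)
      Subtype.val_injective).mp (halg z)
  have halgF : Algebra.IsAlgebraic (Subring.center D) D := ⟨fun b => (halg b).tower_top _⟩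
  have htop : Subring.center D ≠ ⊤ := by
    intro h
    apply hnc
    intro x y
    have h1 : y ∈ Subring.center D := by
      rw [h]
      exact Subring.mem_top _
    exact Subring.mem_center_iff.mp h1 x
  obtain ⟨x, hx, hs⟩ := JacobsonNoether.exists_separable_and_not_isCentral D htop
  refine Vale.Agent.P199.Galois.core (K := K) (F := Subring.center D) hKF halg ?_ hB ?_ x hs ?_
  · intro z hz
    exact ⟨⟨z, Subring.mem_center_iff.mpr (fun y => (hz y).symm)⟩, rfl⟩
  · intro L _ _ h1 h2 h3
    exact hN (Subring.center D) L ⟨hKF⟩ h1 h2 h3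
  · rintro r rfl
    exact hx r.2

/-- subalgebras are division algebras -/
theorem sub_comm {K D : Type} [Field K] [DivisionRing D] [Algebra K D]
    (halg : ∀ b : D, IsAlgebraic K b) (hB : NoFiniteDivisionAlgebra K) :
    ∀ E : Subalgebra K D, FiniteDimensional K E → ∀ x ∈ E, ∀ y ∈ E, x * y = y * x := by
  intro E hE x hx y hy
  let _ : DivisionRing E := DivisionRing.ofIsUnitOrEqZero (isUnit_or halg E)
  exact congrArg (fun z : E => (z : D)) (hB E hE ⟨x, hx⟩ ⟨y, hy⟩)

/-- local finiteness from one good finite-dimensional subfield -/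
theorem locFin_of_good {k D K : Type} [Field k] [DivisionRing D] [Algebra k D]
    (halg : ∀ b : D, IsAlgebraic k b) [Field K] [Algebra k K] (hK : FiniteDimensional k K)
    (f : K →ₐ[k] D) (hB : NoFiniteDivisionAlgebra K) (hN : HasAutomorphisms K) :
    LocallyFinite k D := by
  have hA : FiniteDimensional k f.range := LinearMap.finiteDimensional_range f.toLinearMap
  let C := Subalgebra.centralizer k (f.range : Set D)
  have hmem : ∀ c : D, c ∈ C ↔ ∀ a ∈ f.range, c * a = a * c := by
    intro c
    rw [Subalgebra.mem_centralizer_iff]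
    exact ⟨fun h a ha => (h a ha).symm, fun h a ha => (h a ha).symm⟩
  let _ : DivisionRing C := DivisionRing.ofIsUnitOrEqZero (isUnit_or halg C)
  have hfC : ∀ x : K, f x ∈ C := by
    intro x
    rw [hmem]
    rintro _ ⟨y, rfl⟩
    show f x * f y = f y * f x
    rw [← map_mul, ← map_mul, mul_comm]
  let ι : K →+* C := (f : K →+* D).codRestrict C hfC
  let _ : Algebra K C := ι.toAlgebra' (by
    intro x c
    apply Subtype.ext
    exact ((hmem c).mp c.2 (f x) ⟨x, rfl⟩).symm)
  have htower : IsScalarTower k K C := IsScalarTower.of_algebraMap_eq (fun r => by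
    apply Subtype.ext
    exact (f.commutes r).symm)
  have halgC : ∀ c : C, IsAlgebraic K c := by
    intro c
    have h1 : IsAlgebraic k c := (isAlgebraic_algHom_iff C.val Subtype.val_injective).mp (halg c)
    exact h1.tower_top K
  have hcomm := comm_of_good halgC (sub_comm halgC hB) hN
  intro T
  refine (Vale.Agent.Results.P199.Centralizer.result k D).2.2.1 halg f.range hA ?_ T
    (fun _ _ => Set.mem_univ _)
  intro c d hc hd
  exact congrArg (fun z : C => (z : D)) (hcomm ⟨c, (hmem c).mpr hc⟩ ⟨d, (hmem d).mpr hd⟩)

/-- finite fields have property (B) -/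
theorem finite_noDiv (K : Type) [Field K] [Finite K] : NoFiniteDivisionAlgebra K := by
  intro E _ _ hE x y
  have hfin : Finite E := Module.finite_of_finite K
  exact (littleWedderburn E).mul_comm x y

/-- finite fields have property (N) -/
theorem finite_aut (K : Type) [Field K] [Finite K] : HasAutomorphisms K := by
  intro F L _ _ _ _ hKF hFL hsep hns
  let _ : Algebra K L := ((algebraMap F L).comp (algebraMap K F)).toAlgebra
  have htower : IsScalarTower K F L := IsScalarTower.of_algebraMap_eq (fun _ => rfl)
  have halgL : Algebra.IsAlgebraic K L := Algebra.IsAlgebraic.trans K F L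
  have hnormal : Normal K L := by
    constructor
    intro x
    have hint : IsIntegral K x := (Algebra.IsAlgebraic.isAlgebraic x).isIntegral
    have hfd : FiniteDimensional K (IntermediateField.adjoin K {x}) :=
      IntermediateField.adjoin.finiteDimensional hint
    have hfin : Finite (IntermediateField.adjoin K {x}) := Module.finite_of_finite K
    have hg : IsGalois K (IntermediateField.adjoin K {x}) := inferInstance
    have h1 := hg.to_normal.splits (IntermediateField.AdjoinSimple.gen K x)
    rw [IntermediateField.minpoly_gen] at h1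
    have h2 := h1.map (algebraMap (IntermediateField.adjoin K {x}) L)
    rw [Polynomial.map_map, ← IsScalarTower.algebraMap_eq] at h2
    exact h2
  have hnormal' : Normal F L := Normal.tower_top_of_normal K F L
  have hgal : IsGalois F L := ⟨⟩
  obtain ⟨m, hm⟩ := Field.exists_primitive_element F L
  have hadj : Algebra.adjoin F ({m} : Set L) = ⊤ := by
    rw [← IntermediateField.adjoin_simple_toSubalgebra_of_isAlgebraic
      (Algebra.IsAlgebraic.isAlgebraic m), hm]
    rfl
  obtain ⟨τ, hτ⟩ : ∃ τ : L ≃ₐ[F] L, τ m ≠ m := by
    by_contra h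
    push Not at h
    have h1 := (IsGalois.mem_bot_iff_fixed m).mpr h
    rw [IntermediateField.mem_bot] at h1
    obtain ⟨r, hr⟩ := h1
    apply hns
    intro x
    have hx : x ∈ Algebra.adjoin F ({m} : Set L) := by
      rw [hadj]
      exact Algebra.mem_top
    have hle : Algebra.adjoin F ({m} : Set L) ≤ ⊥ := by
      apply Algebra.adjoin_le
      rintro y rfl
      exact ⟨r, hr⟩
    obtain ⟨s, hs⟩ := hle hx
    exact ⟨s, hs⟩
  refine ⟨m, τ m, hτ, ?_, minpoly.algEquiv_eq τ m⟩
  rw [hadj]
  exact Algebra.mem_top

end Vale.Agent.P199.Good
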