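import Mathlib

/-!
# P199: fields whose nontrivial extensions reduce the index of division algebras
-/

namespace Vale.Agent.P199.IndexDefs

/-- Let `Z` be an algebraic extension of `K`, `A` a noncommutative division algebra of finite
dimension over its center `Z` and `L ≠ Z` a finite separable extension of `Z`. Then `L` reduces the
index of `A`: no division `Z`-algebra contains a copy of `A` and a copy of `L` which commute
elementwise (equivalently, the tensor product of `A` and `L` over `Z` is not a division ring). -/
def ReducesIndex (K : Type) [Field K] : Prop :=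
  ∀ (Z A L : Type) [Field Z] [Algebra K Z] [DivisionRing A] [Algebra Z A] [Field L] [Algebra Z L],
    Algebra.IsAlgebraic K Z → FiniteDimensional Z A →
    (∀ z : A, (∀ a, z * a = a * z) → ∃ r : Z, algebraMap Z A r = z) →
    (∃ a b : A, a * b ≠ b * a) →
    FiniteDimensional Z L → Algebra.IsSeparable Z L → ¬ Function.Surjective (algebraMap Z L) →
    ∀ (E : Type) [DivisionRing E] [Algebra Z E] (f : A →ₐ[Z] E) (g : L →ₐ[Z] E),
      ¬ ∀ a l, f a * g l = g l * f a

end Vale.Agent.P199.IndexDefs
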