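import Vale.Agent.P199.Good
import Vale.Agent.P199.IndexDefs

/-!
# P199: fields whose nontrivial extensions reduce the index of every division algebra
-/

namespace Vale.Agent.P199.Index

open Finset Vale.Agent.P199.Sep Vale.Agent.P199.IndexDefs Vale.Agent.P199.FieldDefs
open scoped TensorProduct

/-- a division subalgebra with center `Z` and a commuting subalgebra are linearly disjoint -/
theorem lift_injective {Z D : Type} [Field Z] [DivisionRing D] [Algebra Z D]
    (halg : ∀ b : D, IsAlgebraic Z b) (A L : Subalgebra Z D) (hfd : FiniteDimensional Z L)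
    (hcen : ∀ z ∈ A, (∀ a ∈ A, z * a = a * z) → ∃ r : Z, algebraMap Z D r = z)
    (hAL : ∀ (a : A) (l : L), Commute (A.val a) (L.val l)) :
    Function.Injective (Algebra.TensorProduct.lift A.val L.val hAL) := by
  classical
  let e := Module.finBasis Z L
  let n := Module.finrank Z L
  -- no relation
  have key : ∀ α : Fin n → D, (∀ j, α j ∈ A) → ∑ j, α j * (e j : D) = 0 → α = 0 := by
    intro α hα hsum
    by_contra hne
    let P : ℕ → Prop := fun m => ∃ d : Fin n → D, (∀ j, d j ∈ A) ∧ ∑ j, d j * (e j : D) = 0 ∧
      d ≠ 0 ∧ (univ.filter (fun i => d i ≠ 0)).card = m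
    have hP : ∃ m, P m := ⟨_, α, hα, hsum, hne, rfl⟩
    obtain ⟨d, hdA, hd, hdne, hdm⟩ := Nat.find_spec hP
    have hmin : ∀ d' : Fin n → D, (∀ j, d' j ∈ A) → ∑ j, d' j * (e j : D) = 0 →
        (univ.filter (fun i => d' i ≠ 0)).card < Nat.find hP → d' = 0 := by
      intro d' hd'A hd' hlt
      by_contra hne'
      exact Nat.find_min hP hlt ⟨d', hd'A, hd', hne', rfl⟩
    obtain ⟨i0, hi0⟩ : ∃ i, d i ≠ 0 := by
      by_contra h'
      push Not at h'
      exact hdne (funext h')
    have hinv : (d i0)⁻¹ ∈ A := by
      rcases isUnit_or halg A ⟨d i0, hdA i0⟩ with ⟨u, hu⟩ | h0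
      · have h1 : (u : A) * (↑u⁻¹ : A) = 1 := u.mul_inv
        have h2 : d i0 * ((↑u⁻¹ : A) : D) = 1 := by
          have h3 := congrArg (fun z : A => (z : D)) h1
          have h4 : ((u : A) : D) = d i0 := congrArg (fun z : A => (z : D)) hu
          rw [← h4]
          exact h3
        rw [inv_eq_of_mul_eq_one_right h2]
        exact (↑u⁻¹ : A).2
      · exact absurd (congrArg (fun z : A => (z : D)) h0) hi0
    let c : Fin n → D := fun i => (d i0)⁻¹ * d i
    have hcA : ∀ j, c j ∈ A := fun j => A.mul_mem hinv (hdA j)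
    have hc : ∑ j, c j * (e j : D) = 0 := by
      have h1 : ∑ j, c j * (e j : D) = (d i0)⁻¹ * ∑ j, d j * (e j : D) := by
        rw [mul_sum]
        refine sum_congr rfl (fun j _ => ?_)
        simp only [c, mul_assoc]
      rw [h1, hd, mul_zero]
    have hc0 : c i0 = 1 := inv_mul_cancel₀ hi0
    have hcomm : ∀ a ∈ A, ∀ j, c j * a = a * c j := by
      intro a ha
      let d' : Fin n → D := fun j => c j * a - a * c j
      have hd'A : ∀ j, d' j ∈ A := fun j => A.sub_mem (A.mul_mem (hcA j) ha) (A.mul_mem ha (hcA j))
      have hd' : ∑ j, d' j * (e j : D) = 0 := by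
        have h3 : ∑ j, d' j * (e j : D) = (∑ j, c j * (e j : D)) * a
            - a * ∑ j, c j * (e j : D) := by
          rw [mul_sum, sum_mul, ← sum_sub_distrib]
          refine sum_congr rfl (fun j _ => ?_)
          have h4 : a * (e j : D) = (e j : D) * a := hAL ⟨a, ha⟩ (e j)
          simp only [d', sub_mul, mul_assoc, h4]
        rw [h3, hc, zero_mul, mul_zero, sub_zero]
      have hlt : (univ.filter (fun i => d' i ≠ 0)).card < Nat.find hP := by
        rw [← hdm]
        apply card_lt_card
        rw [ssubset_iff_of_subset]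
        · refine ⟨i0, by simp [hi0], ?_⟩
          simp [d', hc0]
        · intro i hi
          simp only [mem_filter, mem_univ, true_and] at hi ⊢
          intro h'
          apply hi
          simp [d', c, h']
      have h0 := hmin d' hd'A hd' hlt
      intro j
      have h4 := congrFun h0 j
      simp only [d', Pi.zero_apply] at h4
      exact sub_eq_zero.mp h4
    choose r hr using fun j => hcen (c j) (hcA j) (fun a ha => hcomm a ha j)
    have h5 : ∑ j, r j • e j = 0 := by
      apply Subtype.ext
      have h6 : ((∑ j, r j • e j : L) : D) = ∑ j, r j • (e j : D) := by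
        show L.val (∑ j, r j • e j) = _
        rw [map_sum]
        refine sum_congr rfl (fun j _ => ?_)
        rw [map_smul]
        rfl
      rw [h6]
      have h7 : ∑ j, r j • (e j : D) = 0 := by
        rw [← hc]
        refine sum_congr rfl (fun j _ => ?_)
        rw [← hr j, Algebra.smul_def]
      rw [h7]
      rfl
    have h7 := Fintype.linearIndependent_iff.mp e.linearIndependent r h5 i0
    rw [← hr i0, h7, map_zero] at hc0
    exact zero_ne_one hc0
  rw [injective_iff_map_eq_zero]
  intro u hu
  -- write `u` in the basis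
  let E := Algebra.TensorProduct.basis A e
  have hrep : u = ∑ j, (E.repr u j) ⊗ₜ[Z] (e j) := by
    conv_lhs => rw [← E.sum_repr u]
    refine sum_congr rfl (fun j _ => ?_)
    rw [Algebra.TensorProduct.basis_apply, TensorProduct.smul_tmul']
    simp
  have h1 : ∑ j, ((E.repr u j : A) : D) * (e j : D) = 0 := by
    rw [← hu]
    conv_rhs => rw [hrep]
    rw [map_sum]
    refine sum_congr rfl (fun j _ => ?_)
    rw [Algebra.TensorProduct.lift_tmul]
    rfl
  have h2 := key (fun j => ((E.repr u j : A) : D)) (fun j => (E.repr u j : A).2) h1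
  rw [hrep]
  refine sum_eq_zero (fun j _ => ?_)
  have h3 : E.repr u j = 0 := Subtype.ext (congrFun h2 j)
  rw [h3, TensorProduct.zero_tmul]

/-- over a field where extensions reduce the index, the centralizer of a noncommutative
finite-dimensional algebra with center `Z` is commutative -/
theorem centralizer_comm_of_index {K Z D : Type} [Field K] [Field Z] [Algebra K Z] [DivisionRing D]
    [Algebra Z D] (hKZ : Algebra.IsAlgebraic K Z) (halg : ∀ b : D, IsAlgebraic Z b)
    (hS : ReducesIndex K) (A : Subalgebra Z D) (hA : FiniteDimensional Z A)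
    (hcen : ∀ z ∈ A, (∀ a ∈ A, z * a = a * z) → ∃ r : Z, algebraMap Z D r = z)
    (hnc : ∃ a ∈ A, ∃ b ∈ A, a * b ≠ b * a) :
    ∀ c d : D, (∀ a ∈ A, c * a = a * c) → (∀ a ∈ A, d * a = a * d) → c * d = d * c := by
  refine centralizer_comm halg A ?_
  intro y hy hys
  by_contra hyA
  have hyy : ∀ a ∈ ({y} : Set D), ∀ b ∈ ({y} : Set D), a * b = b * a := by
    rintro a rfl b rfl
    rfl
  let L := Algebra.adjoin Z ({y} : Set D)
  let _ : Field L := fieldOf halg L (adjoin_comm _ hyy)
  let _ : DivisionRing A := DivisionRing.ofIsUnitOrEqZero (isUnit_or halg A)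
  have hfd : FiniteDimensional Z L :=
    Module.Finite.iff_fg.mpr (halg y).isIntegral.fg_adjoin_singleton
  have hsep : Algebra.IsSeparable Z L := by
    constructor
    intro x
    refine (isSeparable_map L.val Subtype.val_injective x).mp ?_
    exact separable_adjoin halg _ hyy (by rintro a rfl; exact hys) _ x.2
  have hns : ¬ Function.Surjective (algebraMap Z L) := by
    intro hsurj
    obtain ⟨r, hr⟩ := hsurj ⟨y, Algebra.subset_adjoin rfl⟩
    apply hyA
    have h1 : algebraMap Z D r = y := congrArg (fun z : L => (z : D)) hr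
    rw [← h1]
    exact A.algebraMap_mem r
  have hLA : L ≤ Subalgebra.centralizer Z (A : Set D) := by
    apply Algebra.adjoin_le
    rintro x rfl
    rw [SetLike.mem_coe, Subalgebra.mem_centralizer_iff]
    intro a ha
    exact (hy a ha).symm
  have hAL : ∀ (a : A) (l : L), Commute (A.val a) (L.val l) := by
    intro a l
    exact (Subalgebra.mem_centralizer_iff Z).mp (hLA l.2) a a.2
  exact hS Z A L hKZ hA (by
      intro z hz
      obtain ⟨r, hr⟩ := hcen z z.2 (fun a ha => congrArg (fun t : A => (t : D)) (hz ⟨a, ha⟩))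
      exact ⟨r, Subtype.ext hr⟩) (by
      obtain ⟨a, ha, b, hb, hab⟩ := hnc
      exact ⟨⟨a, ha⟩, ⟨b, hb⟩, fun h => hab (congrArg (fun t : A => (t : D)) h)⟩) hfd hsep hns
    D A.val L.val hAL

/-- a division ring with a noncommutative finite-dimensional subalgebra, over a field where
extensions reduce the index -/
theorem locFin_of_noncomm {k D : Type} [Field k] [DivisionRing D] [Algebra k D]
    (halg : ∀ b : D, IsAlgebraic k b) (hS : ReducesIndex k) (A : Subalgebra k D)
    (hA : FiniteDimensional k A) (hnc : ∃ a ∈ A, ∃ b ∈ A, a * b ≠ b * a) :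
    LocallyFinite k D := by
  -- the center of `A`
  let Zs : Subalgebra k D := A ⊓ Subalgebra.centralizer k (A : Set D)
  have hZs : ∀ z : D, z ∈ Zs ↔ z ∈ A ∧ ∀ a ∈ A, z * a = a * z := by
    intro z
    rw [Algebra.mem_inf, Subalgebra.mem_centralizer_iff]
    exact ⟨fun h => ⟨h.1, fun a ha => (h.2 a ha).symm⟩, fun h => ⟨h.1, fun a ha => (h.2 a ha).symm⟩⟩
  have hZc : ∀ a ∈ Zs, ∀ b ∈ Zs, a * b = b * a := by
    intro a ha b hb
    exact ((hZs a).mp ha).2 b ((hZs b).mp hb).1
  let _ : Field Zs := fieldOf halg Zs hZc
  let f : Zs →ₐ[k] D := Zs.val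
  have hZalg : Algebra.IsAlgebraic k Zs := by
    constructor
    intro z
    exact (isAlgebraic_algHom_iff f Subtype.val_injective).mp (halg z)
  -- its centralizer
  let C := Subalgebra.centralizer k (Zs : Set D)
  have hmem : ∀ c : D, c ∈ C ↔ ∀ a ∈ Zs, c * a = a * c := by
    intro c
    rw [Subalgebra.mem_centralizer_iff]
    exact ⟨fun h a ha => (h a ha).symm, fun h a ha => (h a ha).symm⟩
  let _ : DivisionRing C := DivisionRing.ofIsUnitOrEqZero (isUnit_or halg C)
  have hfC : ∀ x : Zs, f x ∈ C := by
    intro x
    rw [hmem]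
    intro a ha
    exact hZc x x.2 a ha
  let ι : Zs →+* C := (f : Zs →+* D).codRestrict C hfC
  let _ : Algebra Zs C := ι.toAlgebra' (by
    intro x c
    apply Subtype.ext
    exact ((hmem c).mp c.2 (f x) x.2).symm)
  have htower : IsScalarTower k Zs C := IsScalarTower.of_algebraMap_eq (fun r => by
    apply Subtype.ext
    exact (f.commutes r).symm)
  have halgC : ∀ c : C, IsAlgebraic Zs c := by
    intro c
    have h1 : IsAlgebraic k c := (isAlgebraic_algHom_iff C.val Subtype.val_injective).mp (halg c)
    exact h1.tower_top Zs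
  have hAC : ∀ a ∈ A, a ∈ C := by
    intro a ha
    rw [hmem]
    intro z hz
    exact (((hZs z).mp hz).2 a ha).symm
  let A' : Subalgebra Zs C :=
    { carrier := {x | (x : D) ∈ A}
      mul_mem' := fun {x y} hx hy => A.mul_mem hx hy
      add_mem' := fun {x y} hx hy => A.add_mem hx hy
      algebraMap_mem' := fun r => ((hZs r).mp r.2).1 }
  have hA'mem : ∀ x : C, x ∈ A' ↔ (x : D) ∈ A := fun x => Iff.rfl
  have hfdk : Module.Finite k A' := by
    let g : A' →ₗ[k] A :=
      { toFun := fun x => ⟨((x : C) : D), x.2⟩
        map_add' := fun x y => rfl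
        map_smul' := fun r x => by
          apply Subtype.ext
          show (((r • x : A') : C) : D) = r • (((x : A') : C) : D)
          rfl }
    refine Module.Finite.of_injective g ?_
    intro x y hxy
    apply Subtype.ext
    apply Subtype.ext
    exact congrArg (fun t : A => (t : D)) hxy
  have hfd : FiniteDimensional Zs A' := Module.Finite.of_restrictScalars_finite k Zs A'
  have hcomm := centralizer_comm_of_index (K := k) (Z := Zs) (D := C) hZalg halgC hS A' hfd (by
      intro z hz hza
      refine ⟨⟨(z : D), (hZs z).mpr ⟨hz, ?_⟩⟩, rfl⟩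
      intro a ha
      exact congrArg (fun t : C => (t : D)) (hza ⟨a, hAC a ha⟩ ha)) (by
      obtain ⟨a, ha, b, hb, hab⟩ := hnc
      exact ⟨⟨a, hAC a ha⟩, ha, ⟨b, hAC b hb⟩, hb,
        fun h => hab (congrArg (fun t : C => (t : D)) h)⟩)
  intro T
  refine (Vale.Agent.Results.P199.Centralizer.result k D).2.2.1 halg A hA ?_ T
    (fun _ _ => Set.mem_univ _)
  intro c d hc hd
  have hcC : c ∈ C := by
    rw [hmem]
    intro z hz
    exact hc z ((hZs z).mp hz).1
  have hdC : d ∈ C := by
    rw [hmem]
    intro z hz
    exact hd z ((hZs z).mp hz).1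
  exact congrArg (fun z : C => (z : D)) (hcomm ⟨c, hcC⟩ ⟨d, hdC⟩
    (fun a ha => Subtype.ext (hc a ha)) (fun a ha => Subtype.ext (hd a ha)))

/-- the main theorem: property (N) and index reduction imply local finiteness -/
theorem locFin_of_index {k D : Type} [Field k] [DivisionRing D] [Algebra k D]
    (halg : ∀ b : D, IsAlgebraic k b) (hN : HasAutomorphisms k) (hS : ReducesIndex k) :
    LocallyFinite k D := by
  by_cases h : ∀ E : Subalgebra k D, FiniteDimensional k E → ∀ x ∈ E, ∀ y ∈ E, x * y = y * x
  · have hcomm := Vale.Agent.P199.Good.comm_of_good halg h hN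
    intro T
    exact (Vale.Agent.Results.P199.Centralizer.result k D).2.2.1 halg ⊥ inferInstance
      (fun c d _ _ => hcomm c d) T (fun _ _ => Set.mem_univ _)
  · push Not at h
    obtain ⟨E, hE, x, hx, y, hy, hxy⟩ := h
    exact locFin_of_noncomm halg hS E hE ⟨x, hx, y, hy, hxy⟩

/-- finite-dimensional over a finite extension -/
theorem fd_tower {k K C : Type} [Field k] [Field K] [Ring C] [Algebra k K] [Algebra K C]
    [Algebra k C] [IsScalarTower k K C] [FiniteDimensional k K] (S : Set C)
    (h : FiniteDimensional K (Algebra.adjoin K S)) : FiniteDimensional k (Algebra.adjoin k S) := by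
  let W : Submodule k C := (Subalgebra.toSubmodule (Algebra.adjoin K S)).restrictScalars k
  have h0 : Module.Finite K (Subalgebra.toSubmodule (Algebra.adjoin K S)) := h
  have h2 : Module.Finite k W := by
    have : Module.Finite k (Subalgebra.toSubmodule (Algebra.adjoin K S)) :=
      Module.Finite.trans K _
    exact this
  have hle : Subalgebra.toSubmodule (Algebra.adjoin k S) ≤ W := by
    intro x hx
    show x ∈ Algebra.adjoin K S
    have hx' : x ∈ Algebra.adjoin k S := hx
    clear hx
    induction hx' using Algebra.adjoin_induction with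
    | mem s hs => exact Algebra.subset_adjoin hs
    | algebraMap c =>
      rw [IsScalarTower.algebraMap_apply k K C]
      exact Subalgebra.algebraMap_mem _ _
    | add x y _ _ h1 h2 => exact add_mem h1 h2
    | mul x y _ _ h1 h2 => exact mul_mem h1 h2
  exact Submodule.finiteDimensional_of_le hle

/-- the same for a finite extension of `k` inside `D` -/
theorem locFin_of_index_sub {k D K : Type} [Field k] [DivisionRing D] [Algebra k D]
    (halg : ∀ b : D, IsAlgebraic k b) [Field K] [Algebra k K] (hK : FiniteDimensional k K)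
    (f : K →ₐ[k] D) (hN : HasAutomorphisms K) (hS : ReducesIndex K) : LocallyFinite k D := by
  classical
  have hA : FiniteDimensional k f.range := LinearMap.finiteDimensional_range f.toLinearMap
  let C := Subalgebra.centralizer k (f.range : Set D)
  have hmem : ∀ c : D, c ∈ C ↔ ∀ a ∈ f.range, c * a = a * c := by
    intro c
    rw [Subalgebra.mem_centralizer_iff]
    exact ⟨fun h a ha => (h a ha).symm, fun h a ha => (h a ha).symm⟩
  let _ : DivisionRing C := DivisionRing.ofIsUnitOrEqZero (isUnit_or halg C)
  have hfC : ∀ x : K, f x ∈ C := by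
    intro x
    rw [hmem]
    rintro _ ⟨y, rfl⟩
    show f x * f y = f y * f x
    rw [← map_mul, ← map_mul, mul_comm]
  let ι : K →+* C := (f : K →+* D).codRestrict C hfC
  let _ : Algebra K C := ι.toAlgebra' (by
    intro x c
    apply Subtype.ext
    exact ((hmem c).mp c.2 (f x) ⟨x, rfl⟩).symm)
  have htower : IsScalarTower k K C := IsScalarTower.of_algebraMap_eq (fun r => by
    apply Subtype.ext
    exact (f.commutes r).symm)
  have halgC : ∀ c : C, IsAlgebraic K c := by
    intro c
    have h1 : IsAlgebraic k c := (isAlgebraic_algHom_iff C.val Subtype.val_injective).mp (halg c)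
    exact h1.tower_top K
  have hloc : LocallyFinite K C := locFin_of_index halgC hN hS
  intro T
  refine ((Vale.Agent.Results.P199.Centralizer.result k D).1 f.range hA).mpr ?_ T
    (fun _ _ => Set.mem_univ _)
  intro T hT
  obtain ⟨T', _, hT'⟩ := (Finset.subset_set_image_iff (f := (Subtype.val : C → D))
    (s := Set.univ) (t := T)).mp (by
      intro t ht
      exact ⟨⟨t, (hmem t).mpr (hT t ht)⟩, Set.mem_univ _, rfl⟩)
  have h1 : FiniteDimensional K (Algebra.adjoin K (T' : Set C)) := hloc T'
  have h3 : FiniteDimensional k (Algebra.adjoin k (T' : Set C)) := fd_tower (K := K) _ h1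
  have h5 := Vale.Agent.P199.Galois.fd_map C.val (T' : Set C) h3
  have h6 : (T : Set D) = C.val '' (T' : Set C) := by
    rw [← hT', coe_image]
    rfl
  rw [h6]
  exact h5

/-- finite fields -/
theorem finite_reduces (K : Type) [Field K] [Finite K] : ReducesIndex K := by
  intro Z A L _ _ _ _ _ _ hKZ hA _ hnc _ _ _
  exfalso
  classical
  obtain ⟨a, b, hab⟩ := hnc
  let _ : Algebra K A := ((algebraMap Z A).comp (algebraMap K Z)).toAlgebra' (by
    intro c x
    exact Algebra.commutes (algebraMap K Z c) x)
  have htower : IsScalarTower K Z A := IsScalarTower.of_algebraMap_eq (fun _ => rfl)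
  have hloc := Vale.Agent.P199.Galois.locFin_of_fd (K := K) (F := Z) (B := A)
    (fun z => hKZ.isAlgebraic z) hA
  have h1 := hloc {a, b} (fun _ _ => Set.mem_univ _)
  let E := Algebra.adjoin K ((({a, b} : Finset A) : Set A))
  have hfin : Finite E := Module.finite_of_finite K
  have hdom : IsDomain E := inferInstance
  have ha : a ∈ E := Algebra.subset_adjoin (by simp)
  have hb : b ∈ E := Algebra.subset_adjoin (by simp)
  let _ : DivisionRing E := DivisionRing.ofIsUnitOrEqZero (by
    intro x
    by_cases hx : x = 0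
    · exact Or.inr hx
    · left
      have hinj : Function.Injective (fun y : E => x * y) := mul_right_injective₀ hx
      obtain ⟨y, hy⟩ := (Finite.injective_iff_surjective.mp hinj) 1
      have hy' : x * y = 1 := hy
      have hyx : y * x = 1 := by
        have h4 : x * (y * x) = x * 1 := by rw [← mul_assoc, hy', one_mul, mul_one]
        exact mul_left_cancel₀ hx h4
      exact ⟨⟨x, y, hy', hyx⟩, rfl⟩)
  have h2 := (littleWedderburn E).mul_comm ⟨a, ha⟩ ⟨b, hb⟩
  exact hab (congrArg (fun z : E => (z : A)) h2)

end Vale.Agent.P199.Index
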