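import Vale.Agent.Results.P199.Centralizer

/-!
# P199: an algebraic division ring that is not locally finite has, in each centralizer of a
finite-dimensional subalgebra, an infinite-dimensional commutative separable subfield
-/

namespace Vale.Agent.P199.Sep

open Vale.Agent.Results.P199.Centralizer Polynomial

section

variable {k D : Type} [Field k] [DivisionRing D] [Algebra k D]

/-- separability does not depend on the ambient algebra -/
theorem isSeparable_map {A B : Type} [Ring A] [Ring B] [Algebra k A] [Algebra k B]
    (f : A →ₐ[k] B) (hf : Function.Injective f) (x : A) :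
    IsSeparable k (f x) ↔ IsSeparable k x := by
  simp only [IsSeparable, minpoly.algHom_eq f hf]

/-- elements of a subalgebra of an algebraic division ring have inverses in it -/
theorem isUnit_or (halg : ∀ b : D, IsAlgebraic k b) (L : Subalgebra k D) (a : L) :
    IsUnit a ∨ a = 0 := by
  by_cases h : a = 0
  · exact Or.inr h
  · left
    have hint : IsIntegral k a := by
      have := (halg (a : D)).isIntegral
      exact (isIntegral_algHom_iff L.val Subtype.val_injective).mp this
    have hA : FiniteDimensional k (Algebra.adjoin k ({a} : Set L)) := by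
      have hfg := hint.fg_adjoin_singleton
      exact Module.Finite.iff_fg.mpr hfg
    let B := Algebra.adjoin k ({a} : Set L)
    let a' : B := ⟨a, Algebra.subset_adjoin rfl⟩
    have ha' : a' ≠ 0 := by
      intro h1
      apply h
      exact congrArg (fun z : B => (z : L)) h1
    have hinj : Function.Injective (LinearMap.mulLeft k a') := by
      intro x y hxy
      have h1 : a' * x = a' * y := hxy
      exact mul_left_cancel₀ ha' h1
    have hsurj := LinearMap.injective_iff_surjective.mp hinj
    obtain ⟨b, hb⟩ := hsurj 1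
    have hb' : a' * b = 1 := hb
    have h2 : a * (b : L) = 1 := congrArg (fun z : B => (z : L)) hb'
    have h3 : (b : L) * a = 1 := by
      have h4 : a * ((b : L) * a) = a * 1 := by rw [← mul_assoc, h2, one_mul, mul_one]
      exact mul_left_cancel₀ h h4
    exact ⟨⟨a, b, h2, h3⟩, rfl⟩

/-- the field structure on a commutative subalgebra -/
noncomputable abbrev fieldOf (halg : ∀ b : D, IsAlgebraic k b) (L : Subalgebra k D)
    (hcomm : ∀ a ∈ L, ∀ b ∈ L, a * b = b * a) : Field L :=
  let _ : CommRing L := { (inferInstance : Ring L) with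
    mul_comm := fun a b => Subtype.ext (hcomm _ a.2 _ b.2) }
  Field.ofIsUnitOrEqZero (isUnit_or halg L)

/-- the algebra generated by pairwise commuting elements is commutative -/
theorem adjoin_comm (S : Set D) (hS : ∀ a ∈ S, ∀ b ∈ S, a * b = b * a) :
    ∀ a ∈ Algebra.adjoin k S, ∀ b ∈ Algebra.adjoin k S, a * b = b * a := by
  have h1 : ∀ a ∈ S, ∀ b ∈ Algebra.adjoin k S, a * b = b * a := by
    intro a ha b hb
    have h2 : Algebra.adjoin k S ≤ Subalgebra.centralizer k ({a} : Set D) := by
      apply Algebra.adjoin_le
      intro c hc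
      rw [SetLike.mem_coe, Subalgebra.mem_centralizer_iff]
      rintro _ rfl
      exact hS _ ha _ hc
    exact (Subalgebra.mem_centralizer_iff k).mp (h2 hb) a rfl
  intro a ha b hb
  have h2 : Algebra.adjoin k S ≤ Subalgebra.centralizer k ({b} : Set D) := by
    apply Algebra.adjoin_le
    intro c hc
    rw [SetLike.mem_coe, Subalgebra.mem_centralizer_iff]
    rintro _ rfl
    exact (h1 _ hc _ hb).symm
  exact ((Subalgebra.mem_centralizer_iff k).mp (h2 ha) b rfl).symm

/-- pairwise commuting separable elements generate an algebra of separable elements -/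
theorem separable_adjoin (halg : ∀ b : D, IsAlgebraic k b) (S : Set D)
    (hS : ∀ a ∈ S, ∀ b ∈ S, a * b = b * a) (hsep : ∀ a ∈ S, IsSeparable k a) :
    ∀ x ∈ Algebra.adjoin k S, IsSeparable k x := by
  let _ : Field (Algebra.adjoin k S) := fieldOf halg (Algebra.adjoin k S) (adjoin_comm S hS)
  let f : Algebra.adjoin k S →ₐ[k] D := (Algebra.adjoin k S).val
  have hf : Function.Injective f := Subtype.val_injective
  have key : Algebra.adjoin k S ≤ (separableClosure k (Algebra.adjoin k S)).toSubalgebra.map f := by
    apply Algebra.adjoin_le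
    intro a ha
    refine ⟨⟨a, Algebra.subset_adjoin ha⟩, ?_, rfl⟩
    have h1 : IsSeparable k (f ⟨a, Algebra.subset_adjoin ha⟩) := hsep a ha
    exact (isSeparable_map f hf _).mp h1
  intro x hx
  obtain ⟨y, hy, rfl⟩ := key hx
  exact (isSeparable_map f hf y).mpr hy

/-- if `A` contains all separable elements of its centralizer, the centralizer is commutative -/
theorem centralizer_comm (halg : ∀ b : D, IsAlgebraic k b) (A : Subalgebra k D)
    (h : ∀ c : D, (∀ a ∈ A, c * a = a * c) → IsSeparable k c → c ∈ A) :
    ∀ c d : D, (∀ a ∈ A, c * a = a * c) → (∀ a ∈ A, d * a = a * d) → c * d = d * c := by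
  let C := Subalgebra.centralizer k (A : Set D)
  have hmem : ∀ c : D, c ∈ C ↔ ∀ a ∈ A, c * a = a * c := by
    intro c
    rw [Subalgebra.mem_centralizer_iff]
    exact ⟨fun h a ha => (h a ha).symm, fun h a ha => (h a ha).symm⟩
  let _ : DivisionRing C := DivisionRing.ofIsUnitOrEqZero (isUnit_or halg C)
  obtain ⟨q, hq⟩ := ExpChar.exists k
  have hqC : ExpChar C q := expChar_of_injective_algebraMap (algebraMap k C).injective q
  have hqZ : ExpChar (Subring.center C) q := ExpChar.expChar_center_iff.2 hqC
  have hpow : ∀ x : C, ∃ n : ℕ, x ^ q ^ n ∈ Subring.center C := by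
    intro x
    have hint : IsIntegral k x := by
      have := (halg (x : D)).isIntegral
      exact (isIntegral_algHom_iff C.val Subtype.val_injective).mp this
    obtain ⟨g, h1, n, h2⟩ := (minpoly.irreducible hint).hasSeparableContraction q
    have hsep : IsSeparable k (x ^ q ^ n) := h1.of_dvd <| minpoly.dvd k _ <| by
      simpa only [expand_aeval, minpoly.aeval] using congr_arg (aeval x) h2
    have hsep' : IsSeparable k ((x ^ q ^ n : C) : D) :=
      (isSeparable_map C.val Subtype.val_injective (x ^ q ^ n)).mpr hsep
    have hA := h _ ((hmem _).mp (x ^ q ^ n : C).2) hsep'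
    refine ⟨n, ?_⟩
    rw [Subring.mem_center_iff]
    intro y
    apply Subtype.ext
    exact (hmem _).mp y.2 _ hA
  have hpi : IsPurelyInseparable (Subring.center C) C := by
    rw [isPurelyInseparable_iff_pow_mem (Subring.center C) q]
    intro x
    obtain ⟨n, hn⟩ := hpow x
    exact ⟨n, ⟨x ^ q ^ n, hn⟩, rfl⟩
  have htop : Subring.center C = ⊤ := by
    by_contra hne
    obtain ⟨x, hx, hs⟩ := JacobsonNoether.exists_separable_and_not_isCentral C hne
    obtain ⟨z, hz⟩ := IsPurelyInseparable.inseparable (Subring.center C) x hs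
    apply hx
    rw [← hz]
    exact z.2
  intro c d hc hd
  have h1 : (⟨d, (hmem d).mpr hd⟩ : C) ∈ Subring.center C := by
    rw [htop]
    exact Subring.mem_top _
  rw [Subring.mem_center_iff] at h1
  exact congrArg (fun z : C => (z : D)) (h1 ⟨c, (hmem c).mpr hc⟩)

open scoped TensorProduct in
/-- two commuting finite-dimensional subalgebras lie in a finite-dimensional one -/
theorem exists_join (A K : Subalgebra k D) [FiniteDimensional k A] [FiniteDimensional k K]
    (hAK : ∀ x ∈ K, ∀ a ∈ A, x * a = a * x) :
    ∃ B : Subalgebra k D, FiniteDimensional k B ∧ A ≤ B ∧ K ≤ B := by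
  let f : A ⊗[k] K →ₐ[k] D :=
    Algebra.TensorProduct.lift A.val K.val (fun a x => (hAK x x.2 a a.2).symm)
  refine ⟨f.range, ?_, ?_, ?_⟩
  · exact LinearMap.finiteDimensional_range f.toLinearMap
  · intro a ha
    refine ⟨⟨a, ha⟩ ⊗ₜ 1, ?_⟩
    have h1 : f (⟨a, ha⟩ ⊗ₜ 1) = A.val ⟨a, ha⟩ * K.val 1 := Algebra.TensorProduct.lift_tmul ..
    calc f (⟨a, ha⟩ ⊗ₜ 1) = A.val ⟨a, ha⟩ * K.val 1 := h1
      _ = a := by rw [map_one, mul_one]; rfl
  · intro x hx
    refine ⟨1 ⊗ₜ ⟨x, hx⟩, ?_⟩
    have h1 : f (1 ⊗ₜ ⟨x, hx⟩) = A.val 1 * K.val ⟨x, hx⟩ := Algebra.TensorProduct.lift_tmul ..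
    calc f (1 ⊗ₜ ⟨x, hx⟩) = A.val 1 * K.val ⟨x, hx⟩ := h1
      _ = x := by rw [map_one, one_mul]; rfl

/-- if the commutative separable subalgebras of the centralizer of `A` are finite-dimensional,
then `D` is locally finite -/
theorem locFin_of_subfields (halg : ∀ b : D, IsAlgebraic k b) (A : Subalgebra k D)
    [FiniteDimensional k A]
    (h : ∀ K : Subalgebra k D, (∀ x ∈ K, ∀ y ∈ K, x * y = y * x) →
      (∀ x ∈ K, ∀ a ∈ A, x * a = a * x) → (∀ x ∈ K, IsSeparable k x) → FiniteDimensional k K) :
    LocFinOn k (Set.univ : Set D) := by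
  let P : Set (Set D) := {S | (∀ x ∈ S, ∀ y ∈ S, x * y = y * x) ∧
    (∀ x ∈ S, ∀ a ∈ A, x * a = a * x) ∧ ∀ x ∈ S, IsSeparable k x}
  obtain ⟨S, hS⟩ : ∃ m, Maximal (· ∈ P) m := by
    apply zorn_subset
    intro c hc hchain
    refine ⟨⋃₀ c, ⟨?_, ?_, ?_⟩, fun s hs => Set.subset_sUnion_of_mem hs⟩
    · rintro x ⟨s, hs, hx⟩ y ⟨t, ht, hy⟩
      rcases hchain.total hs ht with hst | hts
      · exact (hc ht).1 x (hst hx) y hy
      · exact (hc hs).1 x hx y (hts hy)
    · rintro x ⟨s, hs, hx⟩ a ha
      exact (hc hs).2.1 x hx a ha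
    · rintro x ⟨s, hs, hx⟩
      exact (hc hs).2.2 x hx
  have hSP : S ∈ P := hS.prop
  have hK1 := adjoin_comm (k := k) S hSP.1
  have hK3 := separable_adjoin halg S hSP.1 hSP.2.2
  have hK2 : ∀ x ∈ Algebra.adjoin k S, ∀ a ∈ A, x * a = a * x := by
    have h2 : Algebra.adjoin k S ≤ Subalgebra.centralizer k (A : Set D) := by
      apply Algebra.adjoin_le
      intro x hx
      rw [SetLike.mem_coe, Subalgebra.mem_centralizer_iff]
      intro a ha
      exact (hSP.2.1 x hx a ha).symm
    intro x hx a ha
    exact ((Subalgebra.mem_centralizer_iff k).mp (h2 hx) a ha).symm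
  have hfin : FiniteDimensional k (Algebra.adjoin k S) := h _ hK1 hK2 hK3
  obtain ⟨B, hB, hAB, hKB⟩ := exists_join A (Algebra.adjoin k S) hK2
  have hcomm := centralizer_comm halg B (by
    intro c hc hs
    have hcS : c ∈ S := by
      have h1 : insert c S ∈ P := by
        refine ⟨?_, ?_, ?_⟩
        · intro x hx y hy
          rcases hx with rfl | hx
          · rcases hy with rfl | hy
            · rfl
            · exact hc y (hKB (Algebra.subset_adjoin hy))
          · rcases hy with rfl | hy
            · exact (hc x (hKB (Algebra.subset_adjoin hx))).symm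
            · exact hSP.1 x hx y hy
        · intro x hx a ha
          rcases hx with rfl | hx
          · exact hc a (hAB ha)
          · exact hSP.2.1 x hx a ha
        · intro x hx
          rcases hx with rfl | hx
          · exact hs
          · exact hSP.2.2 x hx
      exact hS.le_of_ge h1 (Set.subset_insert _ _) (Set.mem_insert _ _)
    exact hKB (Algebra.subset_adjoin hcS))
  exact (Vale.Agent.Results.P199.Centralizer.result k D).2.2.1 halg B hB hcomm

/-- a field extension which is separable with bounded degrees is finite -/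
theorem fd_of_bounded {L : Type} [Field L] [Algebra k L] (N : ℕ)
    (hs : ∀ x : L, IsSeparable k x) (hN : ∀ x : L, (minpoly k x).natDegree ≤ N) :
    FiniteDimensional k L := by
  classical
  let Q : ℕ → Prop := fun m => ∃ x : L, (minpoly k x).natDegree = m
  have hQ0 : Q (minpoly k (0 : L)).natDegree := ⟨0, rfl⟩
  obtain ⟨m, hm, hmax⟩ : ∃ m, Q m ∧ ∀ m', Q m' → m' ≤ m := by
    refine ⟨Nat.findGreatest Q N, Nat.findGreatest_spec (hN 0) hQ0, ?_⟩
    rintro m' ⟨x, hx⟩
    exact Nat.le_findGreatest (hx ▸ hN x) ⟨x, hx⟩
  obtain ⟨a, ha⟩ := hm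
  have hint : ∀ x : L, IsIntegral k x := fun x => (hs x).isIntegral
  have htop : IntermediateField.adjoin k {a} = (⊤ : IntermediateField k L) := by
    rw [eq_top_iff]
    intro y _
    let E := IntermediateField.adjoin k ({a, y} : Set L)
    have hfd : FiniteDimensional k E := by
      apply IntermediateField.finiteDimensional_adjoin
      intro x _
      exact hint x
    have hsepE : Algebra.IsSeparable k E := by
      constructor
      intro x
      exact (isSeparable_map (IntermediateField.val E) (IntermediateField.val E).injective x).mp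
        (hs _)
    obtain ⟨b, hb⟩ := Field.exists_primitive_element k E
    have hb2 := (Field.primitive_element_iff_minpoly_natDegree_eq k b).mp hb
    have hb3 : (minpoly k (b : L)).natDegree = (minpoly k b).natDegree := by
      have := minpoly.algHom_eq (IntermediateField.val E) (IntermediateField.val E).injective b
      exact congrArg natDegree this
    have hle : IntermediateField.adjoin k {a} ≤ E :=
      IntermediateField.adjoin.mono k _ _ (by simp)
    have hfr : Module.finrank k E ≤ Module.finrank k (IntermediateField.adjoin k {a}) := by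
      rw [IntermediateField.adjoin.finrank (hint a), ha, ← hb2, ← hb3]
      exact hmax _ ⟨_, rfl⟩
    have heq := IntermediateField.eq_of_le_of_finrank_le hle hfr
    rw [heq]
    exact IntermediateField.subset_adjoin k _ (by simp)
  have hfd : FiniteDimensional k (IntermediateField.adjoin k {a}) :=
    IntermediateField.adjoin.finiteDimensional (hint a)
  rw [htop] at hfd
  exact Module.Finite.equiv (IntermediateField.topEquiv (F := k) (E := L)).toLinearEquiv

/-- bounded degrees of the separable elements of a centralizer -/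
theorem fd_subfield (halg : ∀ b : D, IsAlgebraic k b) (K : Subalgebra k D)
    (hc : ∀ x ∈ K, ∀ y ∈ K, x * y = y * x) (hs : ∀ x ∈ K, IsSeparable k x) (N : ℕ)
    (hN : ∀ x ∈ K, (minpoly k x).natDegree ≤ N) : FiniteDimensional k K := by
  let _ : Field K := fieldOf halg K hc
  apply fd_of_bounded N
  · intro x
    exact (isSeparable_map K.val Subtype.val_injective x).mp (hs x x.2)
  · intro x
    have := minpoly.algHom_eq K.val Subtype.val_injective x
    rw [← this]
    exact hN x x.2

end

end Vale.Agent.P199.Sep
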