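import Vale.Agent.P199.Sep

/-!
# P199: conjugate elements of an algebraic division ring
-/

namespace Vale.Agent.P199.Skolem

open Finset Polynomial

section

variable {F D : Type} [Field F] [DivisionRing D] [Algebra F D]

/-- operators `x ↦ ∑ β_j x c_j` with independent `c_j` do not vanish -/
theorem op_zero (hcen : ∀ z : D, (∀ x, z * x = x * z) → ∃ r : F, algebraMap F D r = z)
    {n : ℕ} (c : Fin n → D) (hc : LinearIndependent F c) (β : Fin n → D)
    (h : ∀ x, ∑ j, β j * x * c j = 0) : β = 0 := by
  classical
  by_contra hβ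
  let P : ℕ → Prop := fun m => ∃ d : Fin n → D, (∀ x, ∑ j, d j * x * c j = 0) ∧ d ≠ 0 ∧
    (univ.filter (fun i => d i ≠ 0)).card = m
  have hP : ∃ m, P m := ⟨_, β, h, hβ, rfl⟩
  obtain ⟨d, hd, hdne, hdm⟩ := Nat.find_spec hP
  have hmin : ∀ d' : Fin n → D, (∀ x, ∑ j, d' j * x * c j = 0) →
      (univ.filter (fun i => d' i ≠ 0)).card < Nat.find hP → d' = 0 := by
    intro d' hd' hlt
    by_contra hne
    exact Nat.find_min hP hlt ⟨d', hd', hne, rfl⟩
  obtain ⟨i0, hi0⟩ : ∃ i, d i ≠ 0 := by
    by_contra h'
    push Not at h'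
    exact hdne (funext h')
  let e : Fin n → D := fun i => (d i0)⁻¹ * d i
  have he : ∀ x, ∑ j, e j * x * c j = 0 := by
    intro x
    have h1 : ∑ j, e j * x * c j = (d i0)⁻¹ * ∑ j, d j * x * c j := by
      rw [mul_sum]
      refine sum_congr rfl (fun j _ => ?_)
      simp only [e, mul_assoc]
    rw [h1, hd x, mul_zero]
  have he0 : e i0 = 1 := inv_mul_cancel₀ hi0
  have hcomm : ∀ y j, e j * y = y * e j := by
    intro y
    let d' : Fin n → D := fun j => e j * y - y * e j
    have hd' : ∀ x, ∑ j, d' j * x * c j = 0 := by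
      intro x
      have h3 : ∑ j, d' j * x * c j = ∑ j, e j * (y * x) * c j - y * ∑ j, e j * x * c j := by
        rw [mul_sum, ← sum_sub_distrib]
        refine sum_congr rfl (fun j _ => ?_)
        simp only [d', sub_mul, mul_assoc]
      rw [h3, he, he, mul_zero, sub_zero]
    have hlt : (univ.filter (fun i => d' i ≠ 0)).card < Nat.find hP := by
      rw [← hdm]
      apply card_lt_card
      rw [ssubset_iff_of_subset]
      · refine ⟨i0, by simp [hi0], ?_⟩
        simp [d', he0]
      · intro i hi
        simp only [mem_filter, mem_univ, true_and] at hi ⊢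
        intro h'
        apply hi
        simp [d', e, h']
    have h0 := hmin d' hd' hlt
    intro j
    have h4 := congrFun h0 j
    simp only [d', Pi.zero_apply] at h4
    exact sub_eq_zero.mp h4
  choose r hr using fun j => hcen (e j) (fun y => hcomm y j)
  have h5 : ∑ j, r j • c j = 0 := by
    have h6 := he 1
    rw [← h6]
    refine sum_congr rfl (fun j _ => ?_)
    rw [← hr j, mul_one, Algebra.smul_def]
  have h7 := Fintype.linearIndependent_iff.mp hc r h5 i0
  rw [← hr i0, h7, map_zero] at he0
  exact zero_ne_one he0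

/-- Skolem-Noether (Dickson): elements with the same minimal polynomial over the center are
conjugate -/
theorem conj_of_minpoly (hcen : ∀ z : D, (∀ x, z * x = x * z) → ∃ r : F, algebraMap F D r = z)
    (a b : D) (ha : IsIntegral F a) (hab : minpoly F b = minpoly F a) :
    ∃ d : D, d ≠ 0 ∧ d * a = b * d := by
  classical
  set f := minpoly F a with hf
  set n := f.natDegree with hn
  have hmonic : f.Monic := minpoly.monic ha
  have hnpos : 0 < n := minpoly.natDegree_pos ha
  let L : Module.End F D := LinearMap.mulLeft F b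
  let R : Module.End F D := LinearMap.mulRight F a
  have hLR : Commute L R := by
    apply LinearMap.ext
    intro x
    show b * (x * a) = (b * x) * a
    rw [mul_assoc]
  have hLpow : ∀ m x, (L ^ m) x = b ^ m * x := by
    intro m x
    rw [LinearMap.pow_mulLeft]
    rfl
  have hRpow : ∀ m x, (R ^ m) x = x * a ^ m := by
    intro m x
    rw [LinearMap.pow_mulRight]
    rfl
  let G : Module.End F D := ∑ m ∈ range (n + 1), f.coeff m •
    ∑ i ∈ range m, L ^ i * R ^ (m - 1 - i)
  have hG : (L - R) * G = 0 := by
    apply LinearMap.ext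
    intro x
    have h1 : (L - R) * G = ∑ m ∈ range (n + 1), f.coeff m • (L ^ m - R ^ m) := by
      simp only [G]
      rw [mul_sum]
      refine sum_congr rfl (fun m _ => ?_)
      rw [mul_smul_comm, hLR.mul_geom_sum₂]
    rw [h1]
    have h2 : (∑ m ∈ range (n + 1), f.coeff m • (L ^ m - R ^ m)) x
        = (∑ m ∈ range (n + 1), f.coeff m • b ^ m) * x
          - x * ∑ m ∈ range (n + 1), f.coeff m • a ^ m := by
      rw [LinearMap.sum_apply, sum_mul, mul_sum, ← sum_sub_distrib]
      refine sum_congr rfl (fun m _ => ?_)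
      rw [LinearMap.smul_apply, LinearMap.sub_apply, hLpow, hRpow, smul_sub, smul_mul_assoc,
        mul_smul_comm]
    have h3 : ∑ m ∈ range (n + 1), f.coeff m • a ^ m = 0 := by
      rw [← aeval_eq_sum_range]
      exact minpoly.aeval F a
    have h4 : ∑ m ∈ range (n + 1), f.coeff m • b ^ m = 0 := by
      rw [← aeval_eq_sum_range, ← hab]
      exact minpoly.aeval F b
    rw [h2, h3, h4, zero_mul, mul_zero, sub_zero]
    rfl
  by_contra hno
  push Not at hno
  have hG0 : ∀ x, G x = 0 := by
    intro x
    by_contra hx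
    apply hno (G x) hx
    have h1 : ((L - R) * G) x = 0 := by rw [hG]; rfl
    have h2 : b * G x - G x * a = 0 := h1
    exact (sub_eq_zero.mp h2).symm
  let β : Fin n → D := fun j => ∑ m ∈ range (n + 1),
    if (j : ℕ) < m then f.coeff m • b ^ (m - 1 - j) else 0
  have hβ : ∀ x, ∑ j, β j * x * a ^ (j : ℕ) = 0 := by
    intro x
    rw [← hG0 x]
    have h1 : G x = ∑ m ∈ range (n + 1), ∑ j : Fin n,
        if (j : ℕ) < m then (f.coeff m • b ^ (m - 1 - j)) * x * a ^ (j : ℕ) else 0 := by
      simp only [G]
      rw [LinearMap.sum_apply]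
      refine sum_congr rfl (fun m hm => ?_)
      rw [LinearMap.smul_apply, LinearMap.sum_apply, smul_sum]
      rw [← sum_range_reflect]
      rw [Fin.sum_univ_eq_sum_range (fun j => if j < m then
        (f.coeff m • b ^ (m - 1 - j)) * x * a ^ j else 0) n]
      rw [← sum_filter]
      have h5 : (range n).filter (fun j => j < m) = range m := by
        ext j
        simp only [mem_filter, mem_range] at hm ⊢
        omega
      rw [h5]
      refine sum_congr rfl (fun j hj => ?_)
      rw [mem_range] at hj
      have h6 : m - 1 - (m - 1 - j) = j := by omega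
      rw [h6]
      show f.coeff m • ((L ^ (m - 1 - j)) ((R ^ j) x)) = _
      rw [hLpow, hRpow, smul_mul_assoc, smul_mul_assoc, mul_assoc]
    rw [h1, sum_comm]
    refine sum_congr rfl (fun j _ => ?_)
    simp only [β]
    rw [sum_mul, sum_mul]
    refine sum_congr rfl (fun m _ => ?_)
    split_ifs
    · rfl
    · rw [zero_mul, zero_mul]
  have hli : LinearIndependent F fun i : Fin n => a ^ (i : ℕ) := linearIndependent_pow a
  have h0 := op_zero hcen _ hli β hβ
  have h1 := congrFun h0 ⟨n - 1, by omega⟩
  simp only [β, Pi.zero_apply] at h1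
  rw [sum_range_succ] at h1
  rw [sum_eq_zero (fun m hm => ?_), zero_add, if_pos (by omega)] at h1
  · have h2 : n - 1 - (n - 1) = 0 := by omega
    rw [h2, pow_zero] at h1
    have h3 : f.coeff n = 1 := hmonic
    rw [h3, one_smul] at h1
    exact one_ne_zero h1
  · rw [mem_range] at hm
    rw [if_neg (by omega)]

end

end Vale.Agent.P199.Skolem
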